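import Vale.Agent.P125.R89.Triv1_89
import Vale.Agent.P125.R89.Blk_89

set_option linter.unusedSectionVars false
set_option linter.unusedVariables false

/-!
# P125 Poly: subtask Rem
-/

namespace Vale.Agent.P125.R89

open scoped BigOperators
open Vale.Agent.P125.Dich

theorem stRem_89 (hs : StSmall) (h1 : StTriv1) : StRem := by
  intro S _ _ μ P hc hL n f m ρ
  obtain ⟨om0, omsum, lb0, l20, avl2, avlb, U0, Fle, _, _⟩ := hs S μ P hc hL n f
  have key : ∀ k b, Ak P f (m + ρ) k b ≤ Ak P f m k b +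
      ∑ i ∈ Finset.range ρ, op P (m + i) (lbar P f) b := by
    intro k b
    refine (Ak_add_89 hL f k m ρ b).trans (add_le_add le_rfl ?_)
    have := hL.op_mono m _ _ (fun z => h1 S μ P hc hL n f k ρ z) b
    rw [hL.op_sum] at this
    refine this.trans (le_of_eq ?_)
    refine Finset.sum_congr rfl fun i _ => ?_
    rw [hL.op_op]
  have step1 : ∀ k, Qk μ P f (m + ρ) k ≤ Qk μ P f m k +
      av μ (fun b => om P f k b * ∑ i ∈ Finset.range ρ, op P (m + i) (lbar P f) b) := by
    intro k
    unfold Qk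
    rw [← av_add_89]
    apply hL.av_mono
    intro b
    have := mul_le_mul_of_nonneg_left (key k b) (om0 k b)
    rw [mul_add] at this
    exact this
  have term : ∀ j, av μ (fun b => lbar P f b * op P j (lbar P f) b) ≤ U μ P f := by
    intro j
    refine (hL.av_cs _ _).trans ?_
    have a1 : av μ (fun x => op P j (lbar P f) x ^ 2) ≤ U μ P f := by
      refine (hL.av_mono _ _ (fun x => hL.sq_op j (lbar P f) x)).trans ?_
      rw [hL.av_op]
      exact avlb
    have s1 := Real.sqrt_le_sqrt avlb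
    have s2 := Real.sqrt_le_sqrt a1
    calc Real.sqrt (av μ fun x => lbar P f x ^ 2) * Real.sqrt (av μ fun x => op P j (lbar P f) x ^ 2)
        ≤ Real.sqrt (U μ P f) * Real.sqrt (U μ P f) :=
          mul_le_mul s1 s2 (Real.sqrt_nonneg _) (Real.sqrt_nonneg _)
      _ = U μ P f := Real.mul_self_sqrt U0
  have second : ∑ k, av μ (fun b => om P f k b *
      ∑ i ∈ Finset.range ρ, op P (m + i) (lbar P f) b) ≤ ρ * U μ P f := by
    rw [← av_sum_89]
    have e : (fun x => ∑ k, om P f k x * ∑ i ∈ Finset.range ρ, op P (m + i) (lbar P f) x)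
        = fun x => ∑ i ∈ Finset.range ρ, lbar P f x * op P (m + i) (lbar P f) x := by
      funext x
      rw [← Finset.sum_mul, omsum, Finset.mul_sum]
    rw [e, av_sum_89]
    calc ∑ i ∈ Finset.range ρ, av μ (fun x => lbar P f x * op P (m + i) (lbar P f) x)
        ≤ ∑ i ∈ Finset.range ρ, U μ P f := Finset.sum_le_sum fun i _ => term (m + i)
      _ = ρ * U μ P f := by rw [Finset.sum_const, Finset.card_range, nsmul_eq_mul]
  show ∑ k, Qk μ P f (m + ρ) k ≤ ∑ k, Qk μ P f m k + ρ * U μ P f
  calc ∑ k, Qk μ P f (m + ρ) k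
      ≤ ∑ k, (Qk μ P f m k +
        av μ (fun b => om P f k b * ∑ i ∈ Finset.range ρ, op P (m + i) (lbar P f) b)) :=
        Finset.sum_le_sum fun k _ => step1 k
    _ = ∑ k, Qk μ P f m k + ∑ k, av μ (fun b => om P f k b *
        ∑ i ∈ Finset.range ρ, op P (m + i) (lbar P f) b) := Finset.sum_add_distrib
    _ ≤ _ := add_le_add le_rfl second

end Vale.Agent.P125.R89
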