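import Vale.Agent.P125.R89.Defs58

set_option linter.unusedSectionVars false
set_option linter.unusedVariables false

/-!
# P125 Poly: subtask Triv1
-/

namespace Vale.Agent.P125.R89

open scoped BigOperators
open Vale.Agent.P125.Dich

/-- splitting a walk of `m + ρ` steps after `m` steps -/
lemma Ak_add_89 {S : Type} [Fintype S] [DecidableEq S] {μ : S → ℝ} {P : Matrix S S ℝ}
    (hL : Lib μ P) {n : ℕ} (f : S → Fin n → ℝ) (k : Fin n) (m ρ : ℕ) (b : S) :
    Ak P f (m + ρ) k b ≤ Ak P f m k b + op P m (Ak P f ρ k) b := by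
  unfold Ak op
  have e1 : ∑ y, (P ^ (m + ρ)) b y * |F f k y - F f k b|
      = ∑ u, ∑ y, (P ^ m) b u * (P ^ ρ) u y * |F f k y - F f k b| := by
    simp only [hL.pw_add m ρ, Finset.sum_mul]
    rw [Finset.sum_comm]
  have e2 : ∑ y, (P ^ m) b y * |F f k y - F f k b|
      = ∑ u, ∑ y, (P ^ m) b u * (P ^ ρ) u y * |F f k u - F f k b| := by
    refine Finset.sum_congr rfl fun u _ => ?_
    rw [← Finset.sum_mul, ← Finset.mul_sum, hL.pw_sum ρ u, mul_one]
  have e3 : ∑ y, (P ^ m) b y * ∑ y_1, (P ^ ρ) y y_1 * |F f k y_1 - F f k y|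
      = ∑ u, ∑ y, (P ^ m) b u * (P ^ ρ) u y * |F f k y - F f k u| := by
    refine Finset.sum_congr rfl fun u _ => ?_
    rw [Finset.mul_sum]
    refine Finset.sum_congr rfl fun y _ => ?_
    ring
  rw [e1, e2, e3, ← Finset.sum_add_distrib]
  refine Finset.sum_le_sum fun u _ => ?_
  rw [← Finset.sum_add_distrib]
  refine Finset.sum_le_sum fun y _ => ?_
  rw [← mul_add]
  refine mul_le_mul_of_nonneg_left ?_ (mul_nonneg (hL.pw_nonneg m b u) (hL.pw_nonneg ρ u y))
  have : F f k y - F f k b = (F f k u - F f k b) + (F f k y - F f k u) := by ring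
  rw [this]
  exact abs_add_le _ _

theorem stTriv1_89 (hs : StSmall) : StTriv1 := by
  intro S _ _ μ P hc hL n f k ρ
  obtain ⟨om0, omsum, lb0, l20, avl2, avlb, U0, Fle, _, _⟩ := hs S μ P hc hL n f
  have one : ∀ u, Ak P f 1 k u ≤ lbar P f u := by
    intro u
    unfold Ak lbar
    rw [pow_one]
    exact Finset.sum_le_sum fun y _ => mul_le_mul_of_nonneg_left (Fle k u y) (hc.2.2.1 u y)
  induction ρ with
  | zero =>
    intro z
    unfold Ak
    simp only [pow_zero, Finset.range_zero, Finset.sum_empty]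
    apply le_of_eq
    refine Finset.sum_eq_zero fun y _ => ?_
    by_cases h : z = y
    · subst h
      simp
    · rw [Matrix.one_apply_ne h]
      ring
  | succ ρ ih =>
    intro z
    rw [Finset.sum_range_succ]
    refine (Ak_add_89 hL f k ρ 1 z).trans (add_le_add (ih z) ?_)
    exact hL.op_mono ρ _ _ one z

end Vale.Agent.P125.R89
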