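import Vale.Agent.P125.R89.Lib_16
import Vale.Agent.P125.R89.Small_93
import Vale.Agent.P125.R89.Own_33
import Vale.Agent.P125.R89.OwnT_27
import Vale.Agent.P125.R89.Tel_68
import Vale.Agent.P125.R89.Col_85
import Vale.Agent.P125.R89.Two_77
import Vale.Agent.P125.R89.Triv1_89
import Vale.Agent.P125.R89.Triv2_85
import Vale.Agent.P125.R89.Sqrt_89
import Vale.Agent.P125.R89.Rem_89
import Vale.Agent.P125.R89.Blk_89
import Vale.Agent.P125.R89.Dual_67
import Vale.Agent.P125.R89.Down_73
import Vale.Agent.P125.R89.Back_88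
import Vale.Agent.P125.R89.En_56
import Vale.Agent.P125.R89.BB_38
import Vale.Agent.P125.R89.Xi_87
import Vale.Agent.P125.R89.R_14
import Vale.Agent.P125.R89.Q_64
import Vale.Agent.P125.R89.Core_21
import Vale.Agent.P125.R89.Wrap_75

/-!
# P125: polynomial rate for the summing operators, assembly of the frozen copy of the chain
(architecture helper58, pen proof helper78; the files of this folder are renamed copies of the
files `Poly/<Tag>_NN.lean` of the seats NN)
-/

namespace Vale.Agent.P125.R89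

theorem stR : StR :=
  stR_14 stSmall_93 stDual_67 (stDown_73 (stOwnT_27 stOwn_33) stSmall_93) (stBack_88 stSmall_93)
    (stXi_87 stSmall_93 (stEn_56 stSmall_93) (stBB_38 stSmall_93))

theorem stQ : StQ :=
  stQ_64 stSmall_93 (stRem_89 stSmall_93 (stTriv1_89 stSmall_93))
    (stBlk_89 stLib_16 stSmall_93 (stTriv2_85 stSmall_93) stSqrt_89) stR

theorem stTwo : StTwo :=
  stTwo_77 stOwn_33 stTel_68 (stCol_85 stSmall_93) stSmall_93

theorem stCore : StCore := stCore_21 stLib_16 stSmall_93 stTwo stQ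

open scoped BigOperators in
/-- the plain statement: polynomial rate `24 t^(11/6)`, uniformly in `n` -/
theorem poly_rate : ∀ t : ℕ, 1 ≤ t →
    ∀ (n : ℕ) (S : Type) [Fintype S] [DecidableEq S] (μ : S → ℝ) (P : Matrix S S ℝ),
      (∀ i, 0 ≤ μ i) → ∑ i, μ i = 1 → (∀ i j, 0 ≤ P i j) → (∀ i, ∑ j, P i j = 1) →
      (∀ i j, μ i * P i j = μ j * P j i) → ∀ f : S → Fin n → ℝ,
        ∑ i, ∑ j, μ i * (P ^ t) i j *
            (Finset.univ.sup' Finset.univ_nonempty (fun k : Fin (n + 1) =>
              |∑ l : Fin n, if l.val < k.val then f j l - f i l else 0|)) ^ 2 ≤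
          24 * (t : ℝ) ^ (11 / 6 : ℝ) *
            ∑ i, ∑ j, μ i * P i j * (∑ l : Fin n, |f j l - f i l|) ^ 2 :=
  stWrap_75 stCore

end Vale.Agent.P125.R89
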